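import Mathlib
import Vale.Agent.H70.P137.Setting
import Vale.Agent.H70.P137.Final
import Vale.Agent.H76.P137B.FinalSharp

/-!
# P137: the two special cases for the centred maximal function, with almost everywhere
differentiability and the constant of the proof in the plane

The statement of `A0_CentredRadialAndBlock` with two additions.  Let `d ≥ 2`, let `f` be a
function on Euclidean `d`-space of class `C^1`, `K`-Lipschitz and integrable, and let `cM f` be
its centred Hardy-Littlewood maximal function.  Write `J = ∫ ‖∇ f‖` and `J' = ∫ ‖∇ (cM f)‖`.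

1. If `f x = g ‖x‖` with `g` nonincreasing and nonnegative on `[0, ∞)`, then the averages are
   bounded above at every point, `cM f` is `K`-Lipschitz, differentiable almost everywhere, and
   `J' ≤ (d - 1) 2^d (3 d + 1) J`.
2. If `d = 2` and `f` is block-decreasing and nonnegative, then the averages are bounded above
   at every point, `cM f` is `K`-Lipschitz, differentiable almost everywhere, and
   `J' ≤ 4 (1 + 24/π) J` (the constant `35` of `A0_CentredRadialAndBlock` is a rounding of it).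

The definitions `E`, `ballAvg`, `cM` are in `Vale/Agent/H70/P137/Setting.lean`; the proofs are
`Vale.Agent.H70.P137.final_statement` and `Vale.Agent.H76.P137B.final_block_sharp`.
-/

open MeasureTheory
open scoped ENNReal NNReal

namespace Vale.Agent.Results.P137.A00_CentredRadialAndBlockSharp

open Vale.Agent.H70.P137

theorem result (d : ℕ) (hd : 2 ≤ d) (f : E d → ℝ) (hf1 : ContDiff ℝ 1 f) (K : ℝ≥0)
    (hK : LipschitzWith K f) (hfi : Integrable f) (J J' : ℝ≥0∞)
    (hJ : J = ∫⁻ x : E d, ‖fderiv ℝ f x‖ₑ) (hJ' : J' = ∫⁻ x : E d, ‖fderiv ℝ (cM f) x‖ₑ) :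
    ((∃ g : ℝ → ℝ, (∀ x, f x = g ‖x‖) ∧ AntitoneOn g (Set.Ici 0) ∧ ∀ r, 0 ≤ r → 0 ≤ g r) →
      (∀ x, BddAbove (Set.range fun r : {r : ℝ // 0 < r} => ballAvg f x r)) ∧
        LipschitzWith K (cM f) ∧ (∀ᵐ x : E d, DifferentiableAt ℝ (cM f) x) ∧
        J' ≤ ENNReal.ofReal (((d : ℝ) - 1) * 2 ^ d * (3 * d + 1)) * J) ∧
    (d = 2 → (∀ x y : E d, (∀ i, |x i| ≤ |y i|) → f y ≤ f x) → (∀ x, 0 ≤ f x) →
      (∀ x, BddAbove (Set.range fun r : {r : ℝ // 0 < r} => ballAvg f x r)) ∧
        LipschitzWith K (cM f) ∧ (∀ᵐ x : E d, DifferentiableAt ℝ (cM f) x) ∧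
        J' ≤ 4 * ENNReal.ofReal (1 + 24 / Real.pi) * J) := by
  subst hJ hJ'
  refine ⟨?_, ?_⟩
  · rintro ⟨g, hfg, hg, hg0⟩
    obtain ⟨h1, h2, h3⟩ := final_statement d hd f g hfg hg hg0 hf1 K hK hfi
    exact ⟨h1, h2, h2.ae_differentiableAt, h3⟩
  · intro hd2 hbd hf0
    subst hd2
    refine Vale.Agent.H76.P137B.final_block_sharp f (fun x y h0 h1 => hbd x y ?_) hf0 hf1 K hK hfi
    intro i
    fin_cases i
    · exact h0
    · exact h1

end Vale.Agent.Results.P137.A00_CentredRadialAndBlockSharp
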