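import Mathlib
import Vale.Agent.H70.P137.Setting
import Vale.Agent.H70.P137.Final

/-!
# P137: the endpoint gradient bound for the centred maximal function of radially
nonincreasing inputs, in every dimension `d ≥ 2`

Let `d ≥ 2` and `f x = g ‖x‖` on Euclidean `d`-space, with `g` nonincreasing and nonnegative on
`[0, ∞)`, and `f` of class `C^1`, `K`-Lipschitz and integrable. Then, for the centred
Hardy-Littlewood maximal function `cM f` (supremum over `r > 0` of the averages of `|f|` over the
open balls `B(x, r)`):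

* the averages are bounded above at every point, so the supremum is a true supremum;
* `cM f` is `K`-Lipschitz (hence differentiable almost everywhere, with weak gradient given by
  its derivative);
* `∫ ‖∇ (cM f)‖ ≤ (d - 1) 2^d (3 d + 1) ∫ ‖∇ f‖`.

The definitions `E`, `ballAvg`, `cM` are in `Vale/Agent/H70/P137/Setting.lean`.
-/

open MeasureTheory
open scoped ENNReal NNReal

namespace Vale.Agent.Results.P137.A_CentredRadialDecreasing

open Vale.Agent.H70.P137

theorem result (d : ℕ) (hd : 2 ≤ d) (f : E d → ℝ) (g : ℝ → ℝ)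
    (hfg : ∀ x, f x = g ‖x‖) (hg : AntitoneOn g (Set.Ici 0)) (hg0 : ∀ r, 0 ≤ r → 0 ≤ g r)
    (hf1 : ContDiff ℝ 1 f) (K : ℝ≥0) (hK : LipschitzWith K f) (hfi : Integrable f) :
    (∀ x, BddAbove (Set.range fun r : {r : ℝ // 0 < r} => ballAvg f x r)) ∧
      LipschitzWith K (cM f) ∧
      ∫⁻ x : E d, ‖fderiv ℝ (cM f) x‖ₑ
        ≤ ENNReal.ofReal (((d : ℝ) - 1) * 2 ^ d * (3 * d + 1)) * ∫⁻ x : E d, ‖fderiv ℝ f x‖ₑ :=
  final_statement d hd f g hfg hg hg0 hf1 K hK hfi

end Vale.Agent.Results.P137.A_CentredRadialDecreasing
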