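import Mathlib
import Vale.Agent.H70.P137.Setting
import Vale.Agent.H76.P137B.Final

/-!
# P137: the endpoint gradient bound for the centred maximal function of block-decreasing
inputs in the plane

Let `f` be a function on the Euclidean plane that is block-decreasing (`f y ≤ f x` whenever
`|x 0| ≤ |y 0|` and `|x 1| ≤ |y 1|`: `f` is invariant under the sign changes of the coordinates and
nonincreasing in each `|x i|`), nonnegative, of class `C^1`, `K`-Lipschitz and integrable.  Then,
for the centred Hardy-Littlewood maximal function `cM f` (supremum over `r > 0` of the averages of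
`|f|` over the open discs `B(x, r)`):

* the averages are bounded above at every point, so the supremum is a true supremum;
* `cM f` is `K`-Lipschitz (hence differentiable almost everywhere, with weak gradient given by
  its derivative);
* `∫ ‖∇ (cM f)‖ ≤ 35 ∫ ‖∇ f‖` (the proof gives the constant `4 + 96 / π`).

The definitions `E`, `ballAvg`, `cM` are in `Vale/Agent/H70/P137/Setting.lean`.
-/

open MeasureTheory
open scoped ENNReal NNReal

namespace Vale.Agent.Results.P137.B_CentredBlockDecreasingPlane

open Vale.Agent.H70.P137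

theorem result (f : E 2 → ℝ)
    (hbd : ∀ x y : E 2, |x 0| ≤ |y 0| → |x 1| ≤ |y 1| → f y ≤ f x)
    (hf0 : ∀ x, 0 ≤ f x) (hf1 : ContDiff ℝ 1 f) (K : ℝ≥0) (hK : LipschitzWith K f)
    (hfi : Integrable f) :
    (∀ x, BddAbove (Set.range fun r : {r : ℝ // 0 < r} => ballAvg f x r)) ∧
      LipschitzWith K (cM f) ∧
      ∫⁻ x : E 2, ‖fderiv ℝ (cM f) x‖ₑ ≤ 35 * ∫⁻ x : E 2, ‖fderiv ℝ f x‖ₑ :=
  Vale.Agent.H76.P137B.final_block f hbd hf0 hf1 K hK hfi

end Vale.Agent.Results.P137.B_CentredBlockDecreasingPlane
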